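import Vale.Agent.P146.Bd5.B2

/-!
# P146: concentration of the fields in the system `SN`, from the second differences

All coordinates of level less than `d` have vanishing coefficients, hence the log-weights of these
levels are constant and the exponents are at least `m d`.
-/

open MeasureTheory ProbabilityTheory Filter Topology

namespace Vale.Agent.P146.R3.A

open Vale.Agent.P157 Vale.Agent.P157.Lv Vale.Agent.P157.Lv.Sy Vale.Agent.P157.Lv.Fld
open Vale.Agent.P157.Par (Path Exponents incr spinPart)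
open Vale.Agent.P146 (Pair freeEnergy disorder)
open Vale.Agent.P146.Sk (PSK)
open Vale.Agent.P146.Ub Vale.Agent.P146.Ub.Ld

section gen

variable {ι X : Type} [Fintype ι] [Fintype X] [Nonempty X] {S : Sy ι X}
  {H' : (ι → ℝ) → X → ℝ} {lev : ι → ℕ} {d : ℕ}

/-- The exponents of the levels above `l₀` only help. -/
theorem thermal_gen (hS : S.Reg) (hS' : (S.wH H').Reg) {r : ℝ} (hr : 0 < r) {l₀ : ℕ}
    (hl₀ : l₀ ≤ S.K) (hrm : r ≤ S.m (l₀ + 1)) : ∀ l ≤ S.K, l₀ ≤ l → ∀ z,
    S.T l (fun z x => Real.exp (r * (H' z x - S.H z x))) z ≤ Real.exp (r * S.pD H' l z) := by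
  have hr1 : r ≤ 1 := hrm.trans (hS.m_le_one (by omega))
  obtain ⟨f, hf⟩ : ∃ f : (ι → ℝ) → X → ℝ, f = fun z x => Real.exp (r * (H' z x - S.H z x)) :=
    ⟨_, rfl⟩
  rw [← hf]
  have hNf : Nh f := by
    rw [hf]
    exact fun x => (hS.lip_diff hS' x).exp_eg r
  refine down_ind (P := fun l => l₀ ≤ l → ∀ z, S.T l f z ≤ Real.exp (r * S.pD H' l z)) ?_ ?_
  · intro _ z
    rw [hS.T_top]
    have h6 : S.pD H' S.K z = (S.wH H').top z - S.top z := by
      unfold pD
      rw [lg_top S]
      have h7 : (S.wH H').lg S.K = (S.wH H').top := lg_top (S.wH H')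
      rw [h7]
    rw [h6]
    obtain ⟨c, hc⟩ : ∃ c : ℝ, c = (S.wH H').top z - S.top z := ⟨_, rfl⟩
    rw [← hc]
    have h1 : Real.exp c = ∑ x, S.gb z x * Real.exp (H' z x - S.H z x) := by
      rw [hc]; exact exp_top_sub z
    have h2 : ∑ x, S.gb z x * Real.exp (r * (H' z x - S.H z x - c)) ≤ 1 := by
      calc ∑ x, S.gb z x * Real.exp (r * (H' z x - S.H z x - c)) ≤
          ∑ x, S.gb z x * ((1 - r) + r * Real.exp (H' z x - S.H z x - c)) :=
            Finset.sum_le_sum fun x _ => mul_le_mul_of_nonneg_left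
              (exp_mul_le_tangent hr.le hr1 _) (S.gb_pos z x).le
        _ = (1 - r) * ∑ x, S.gb z x + r * Real.exp (-c) *
            ∑ x, S.gb z x * Real.exp (H' z x - S.H z x) := by
            rw [Finset.mul_sum, Finset.mul_sum, ← Finset.sum_add_distrib]
            refine Finset.sum_congr rfl fun x _ => ?_
            have h3 : Real.exp (H' z x - S.H z x - c) =
                Real.exp (-c) * Real.exp (H' z x - S.H z x) := by
              rw [← Real.exp_add]
              congr 1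
              ring
            rw [h3]
            ring
        _ = 1 := by
            rw [S.sum_gb z, ← h1, mul_assoc, ← Real.exp_add]
            simp
    have h3 : S.av f z = Real.exp (r * c) *
        ∑ x, S.gb z x * Real.exp (r * (H' z x - S.H z x - c)) := by
      unfold Sy.av
      rw [Finset.mul_sum]
      refine Finset.sum_congr rfl fun x _ => ?_
      have h4 : f z x = Real.exp (r * c) *
          Real.exp (r * (H' z x - S.H z x - c)) := by
        rw [hf]
        show Real.exp (r * (H' z x - S.H z x)) = _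
        rw [← Real.exp_add]
        congr 1
        ring
      rw [h4]
      ring
    rw [h3]
    exact mul_le_of_le_one_right (Real.exp_pos _).le h2
  · intro l hl ih hll z
    have ih' := ih (by omega)
    rw [hS.T_step hl hNf z]
    have hm : 0 < S.m (l + 1) := hS.m_pos (by omega) (by omega)
    have hmm : r ≤ S.m (l + 1) := hrm.trans (hS.m_mono (by omega) (by omega))
    have hW := hS.pW_eg hl
    have hD := hS.lip_pD hS' (l := l + 1) hl
    have h1 : J S.lev l (fun z => S.pW l z * S.T (l + 1) f z) z ≤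
        J S.lev l (fun z => S.pW l z * Real.exp (r * S.pD H' (l + 1) z)) z :=
      J_mono (hW.mul (hS.eg_T (l := l + 1) hl hNf)) (hW.mul (hD.exp_eg _))
        (fun y => mul_le_mul_of_nonneg_left (ih' y) (S.pW_pos l y).le) z
    refine h1.trans ?_
    obtain ⟨c, hc⟩ : ∃ c : ℝ, c = S.pD H' l z := ⟨_, rfl⟩
    rw [← hc]
    obtain ⟨θ, hθ⟩ : ∃ θ : ℝ, θ = r / S.m (l + 1) := ⟨_, rfl⟩
    have hθ0 : 0 ≤ θ := by rw [hθ]; positivity
    have hθ1 : θ ≤ 1 := by rw [hθ]; exact (div_le_one hm).2 hmm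
    have hθm : θ * S.m (l + 1) = r := by rw [hθ]; exact div_mul_cancel₀ _ hm.ne'
    have h2 : J S.lev l (fun z => S.pW l z * Real.exp (S.m (l + 1) * S.pD H' (l + 1) z)) z =
        Real.exp (S.m (l + 1) * c) := by rw [hc]; exact hS.J_pW_exp hS' hl z
    have h3 : J S.lev l (fun z => S.pW l z * Real.exp (r * S.pD H' (l + 1) z)) z ≤
        J S.lev l (fun z => Real.exp (r * c) * ((1 - θ) * S.pW l z +
          θ * Real.exp (-(S.m (l + 1) * c)) *
            (S.pW l z * Real.exp (S.m (l + 1) * S.pD H' (l + 1) z)))) z := by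
      refine J_mono (hW.mul (hD.exp_eg _)) (((hW.const_mul _).add
        ((hW.mul (hD.exp_eg _)).const_mul _)).const_mul _) (fun y => ?_) z
      have h4 := exp_mul_le_tangent hθ0 hθ1 (S.m (l + 1) * (S.pD H' (l + 1) y - c))
      rw [← mul_assoc, hθm] at h4
      have h5 : Real.exp (r * S.pD H' (l + 1) y) = Real.exp (r * c) *
          Real.exp (r * (S.pD H' (l + 1) y - c)) := by
        rw [← Real.exp_add]
        congr 1
        ring
      have h6 : Real.exp (S.m (l + 1) * (S.pD H' (l + 1) y - c)) =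
          Real.exp (-(S.m (l + 1) * c)) * Real.exp (S.m (l + 1) * S.pD H' (l + 1) y) := by
        rw [← Real.exp_add]
        congr 1
        ring
      rw [h6] at h4
      rw [h5]
      have h7 := mul_le_mul_of_nonneg_left h4
        (mul_pos (S.pW_pos l y) (Real.exp_pos (r * c))).le
      calc S.pW l y * (Real.exp (r * c) * Real.exp (r * (S.pD H' (l + 1) y - c))) =
          S.pW l y * Real.exp (r * c) *
            Real.exp (r * (S.pD H' (l + 1) y - c)) := by ring
        _ ≤ _ := h7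
        _ = _ := by ring
    rw [J_const_mul, J_add (hW.const_mul _) ((hW.mul (hD.exp_eg _)).const_mul _),
      J_const_mul, J_const_mul, h2, hS.J_pW hl z] at h3
    refine h3.trans (le_of_eq ?_)
    rw [mul_assoc θ, ← Real.exp_add]
    simp

/-- `F` does not depend on the coordinates of level less than `d` -/
def Up (lev : ι → ℕ) (d : ℕ) (F : (ι → ℝ) → ℝ) : Prop :=
  ∀ z z', (∀ e, d ≤ lev e → z e = z' e) → F z = F z'

lemma up_J {F : (ι → ℝ) → ℝ} (hF : Up lev d F) (l : ℕ) : Up lev d (Lv.J lev l F) := by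
  intro z z' h
  unfold Lv.J
  congr 1
  funext w
  refine hF _ _ fun e he => ?_
  unfold mix
  split_ifs
  · exact h e he
  · rfl

lemma up_lg (hH : ∀ x, Up S.lev d (fun z => S.H z x)) : ∀ l ≤ S.K, Up S.lev d (S.lg l) := by
  refine down_ind (P := fun l => Up S.lev d (S.lg l)) ?_ ?_
  · rw [lg_top]
    intro z z' h
    unfold Sy.top
    congr 1
    exact Finset.sum_congr rfl fun x _ => congrArg Real.exp (hH x z z' h)
  · intro l hl ih
    rw [lg_step S hl]
    intro z z' h
    have h1 : Up S.lev d (fun z => Real.exp (S.m (l + 1) * S.lg (l + 1) z)) := by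
      intro y y' hy
      simp only [ih y y' hy]
    unfold stp
    rw [up_J h1 l z z' h]

lemma lg_const (hS : S.Reg) (hH : ∀ x, Up S.lev d (fun z => S.H z x)) {l : ℕ} (hl : l ≤ S.K)
    (hld : l < d) (z z' : ι → ℝ) : S.lg l z = S.lg l z' := by
  have h1 := hS.dep_lg hl z z'
  have h2 : S.lg l (mix S.lev l z z') = S.lg l z' := up_lg hH l hl _ _ fun e he => by
    unfold mix
    rw [if_neg (by omega)]
  rw [← h1, h2]

lemma lg_eq_fe (hS : S.Reg) (hH : ∀ x, Up S.lev d (fun z => S.H z x)) {l : ℕ} (hl : l ≤ S.K)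
    (hld : l < d) (z : ι → ℝ) : S.lg l z = S.fe := by
  induction l with
  | zero =>
    unfold Sy.fe
    have h1 : S.lg 0 = fun _ => S.lg 0 z := funext fun z' => lg_const hS hH hl hld z' z
    rw [h1]
    simp
  | succ l ih =>
    have h1 := ih (by omega) (by omega)
    have hm : 0 < S.m (l + 1) := hS.m_pos (by omega) (by omega)
    rw [lg_step S (by omega : l < S.K)] at h1
    unfold stp at h1
    have h2 : (fun z' => Real.exp (S.m (l + 1) * S.lg (l + 1) z')) =
        fun _ => Real.exp (S.m (l + 1) * S.lg (l + 1) z) :=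
      funext fun z' => by rw [lg_const hS hH hl hld z' z]
    rw [h2, J_const, Real.log_exp] at h1
    rw [← h1]
    field_simp

lemma dn_zero_eq (hS : S.Reg) (hH : ∀ x, Up S.lev d (fun z => S.H z x)) (hd1 : 1 ≤ d)
    (hd : d ≤ S.K) (z : ι → ℝ) : S.dn 0 z = S.dn (d - 1) z := by
  unfold Sy.dn
  congr 1
  rw [← Finset.sum_Ico_consecutive _ (Nat.zero_le (d - 1)) (by omega : d - 1 ≤ S.K),
    Finset.sum_eq_zero, zero_add]
  intro i hi
  have hi' := Finset.mem_Ico.1 hi
  rw [lg_eq_fe hS hH (by omega) (by omega), lg_eq_fe hS hH (by omega) (by omega), sub_self,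
    mul_zero]

lemma Ex_eq_Td (hS : S.Reg) (hH : ∀ x, Up S.lev d (fun z => S.H z x)) (hd1 : 1 ≤ d)
    (hd : d ≤ S.K) {h : (ι → ℝ) → X → ℝ} (hh : Nh h) :
    S.Ex h = ∫ z, S.T (d - 1) h z ∂(gI ι) := by
  unfold Sy.Ex Sy.T
  rw [integral_J ((hS.eg_dn (by omega : d - 1 ≤ S.K)).mul (hS.eg_av hh))]
  refine integral_congr_ae (Eventually.of_forall fun z => ?_)
  simp only [dn_zero_eq hS hH hd1 hd]

/-- **Exponential moments**, with the exponent `m d`. -/
theorem exp_moment (hS : S.Reg) (hS' : (S.wH H').Reg) (hH : ∀ x, Up S.lev d (fun z => S.H z x))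
    (hH' : ∀ x, Up S.lev d (fun z => H' z x)) (hd1 : 1 ≤ d) (hd : d ≤ S.K) :
    S.Ex (fun z x => Real.exp (S.m d * (H' z x - S.H z x))) ≤
      Real.exp (S.m d * ((S.wH H').fe - S.fe)) := by
  have hr : 0 < S.m d := hS.m_pos hd1 (by omega)
  have e : d - 1 + 1 = d := by omega
  have h1 := thermal_gen hS hS' hr (l₀ := d - 1) (by omega) (by rw [e]) (d - 1) (by omega) le_rfl
  have hNf : Nh (fun z x => Real.exp (S.m d * (H' z x - S.H z x))) :=
    fun x => (hS.lip_diff hS' x).exp_eg (S.m d)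
  rw [Ex_eq_Td hS hH hd1 hd hNf]
  have h2 : ∀ z, S.T (d - 1) (fun z x => Real.exp (S.m d * (H' z x - S.H z x))) z ≤
      Real.exp (S.m d * ((S.wH H').fe - S.fe)) := fun z => by
    refine (h1 z).trans (le_of_eq ?_)
    unfold pD
    rw [lg_eq_fe hS hH (by omega) (by omega),
      lg_eq_fe (S := S.wH H') hS' hH' (show d - 1 ≤ S.K by omega) (by omega)]
  refine (integral_mono (hS.eg_T (by omega) hNf).integrable (integrable_const _) h2).trans
    (le_of_eq ?_)
  rw [integral_const, probReal_univ, one_smul]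

lemma sq_le_exp_add (u : ℝ) : u ^ 2 ≤ Real.exp u + Real.exp (-u) - 2 := by
  have key : ∀ v : ℝ, 0 ≤ v → (2 * v) ^ 2 ≤ Real.exp (2 * v) + Real.exp (-(2 * v)) - 2 := by
    intro v hv
    have h1 : v ≤ Real.sinh v := Real.self_le_sinh_iff.2 hv
    have h2 : v ^ 2 ≤ Real.sinh v ^ 2 := pow_le_pow_left₀ hv h1 2
    have h3 : Real.exp (2 * v) + Real.exp (-(2 * v)) - 2 = 4 * Real.sinh v ^ 2 := by
      rw [Real.sinh_eq]
      have e1 : Real.exp (2 * v) = Real.exp v ^ 2 := by rw [← Real.exp_nat_mul]; norm_num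
      have e2 : Real.exp (-(2 * v)) = Real.exp (-v) ^ 2 := by
        rw [← Real.exp_nat_mul]; congr 1; push_cast; ring
      have e3 : Real.exp v * Real.exp (-v) = 1 := by rw [← Real.exp_add]; simp
      rw [e1, e2]
      linear_combination (2 : ℝ) * e3
    rw [h3]
    nlinarith
  rcases le_total 0 u with h | h
  · have := key (u / 2) (by linarith)
    rwa [mul_div_cancel₀ u (by norm_num : (2 : ℝ) ≠ 0)] at this
  · have := key (-u / 2) (by linarith)
    rw [mul_div_cancel₀ (-u) (by norm_num : (2 : ℝ) ≠ 0), neg_neg, neg_sq] at this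
    linarith

lemma exp_le_two_mul {x : ℝ} (h0 : 0 ≤ x) (h1 : x ≤ 1) : Real.exp x - 1 ≤ 2 * x := by
  have h2 := exp_mul_le_tangent h0 h1 1
  rw [mul_one] at h2
  have h3 := Real.exp_one_lt_d9
  nlinarith

/-- **Second moments** of an observable from the second difference of the free energy. -/
theorem sq_dev [DecidableEq ι] [DecidableEq X] (hS : S.Reg) {y : (ι → ℝ) → X → ℝ} (hy : Nh y) (hreg : ∀ t, (S.pt y t).Reg)
    (hH : ∀ t : ℝ, ∀ x, Up S.lev d (fun z => S.H z x + t * y z x)) (hd1 : 1 ≤ d) (hd : d ≤ S.K)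
    {t c : ℝ} (ht : 0 < t) (cp : S.fe + t * c ≤ (S.pt y t).fe)
    (cm : S.fe - t * c ≤ (S.pt y (-t)).fe)
    (hsmall : S.m d * ((S.pt y t).fe + (S.pt y (-t)).fe - 2 * S.fe) ≤ 1) :
    S.Ex (fun z x => (y z x - c) ^ 2) ≤
      4 * (S.m d * ((S.pt y t).fe + (S.pt y (-t)).fe - 2 * S.fe)) / (S.m d * t) ^ 2 := by
  have hr : 0 < S.m d := hS.m_pos hd1 (by omega)
  obtain ⟨r, hrd⟩ : ∃ r, r = S.m d := ⟨_, rfl⟩
  obtain ⟨δ, hδ⟩ : ∃ δ, δ = (S.pt y t).fe + (S.pt y (-t)).fe - 2 * S.fe := ⟨_, rfl⟩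
  have hδ0 : 0 ≤ δ := by rw [hδ]; linarith
  have hH0 : ∀ x, Up S.lev d (fun z => S.H z x) := fun x z z' h => by
    have := hH 0 x z z' h
    simpa using this
  have hlip := cc_lip hS hreg
  have hexp : ∀ s : ℝ, Nh fun z x => Real.exp (s * y z x) := fun s x => (hlip x).exp_eg s
  -- the exponential moments
  have hm : ∀ t' : ℝ, S.Ex (fun z x => Real.exp (r * t' * y z x)) ≤
      Real.exp (r * ((S.pt y t').fe - S.fe)) := by
    intro t'
    have h1 := exp_moment (H' := fun z x => S.H z x + t' * y z x) hS (hreg t') hH0 (hH t') hd1 hd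
    rw [← hrd] at h1
    have e1 : (fun (z : ι → ℝ) (x : X) => Real.exp (r * ((S.H z x + t' * y z x) - S.H z x))) =
        fun z x => Real.exp (r * t' * y z x) := by
      funext z x
      congr 1
      ring
    rw [e1] at h1
    exact h1
  have hp : S.Ex (fun z x => Real.exp (-(r * t * c)) * Real.exp (r * t * y z x)) ≤
      Real.exp (r * δ) := by
    rw [Sy.Ex_const_mul]
    refine (mul_le_mul_of_nonneg_left (hm t) (Real.exp_pos _).le).trans ?_
    rw [← Real.exp_add, Real.exp_le_exp, hδ]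
    have h1 : r * (S.fe - t * c) ≤ r * (S.pt y (-t)).fe :=
      mul_le_mul_of_nonneg_left cm (by rw [hrd]; exact hr.le)
    linarith
  have hn : S.Ex (fun z x => Real.exp (r * t * c) * Real.exp (-(r * t) * y z x)) ≤
      Real.exp (r * δ) := by
    rw [Sy.Ex_const_mul]
    have h2 := hm (-t)
    rw [mul_neg] at h2
    refine (mul_le_mul_of_nonneg_left h2 (Real.exp_pos _).le).trans ?_
    rw [← Real.exp_add, Real.exp_le_exp, hδ]
    have h1 : r * (S.fe + t * c) ≤ r * (S.pt y t).fe :=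
      mul_le_mul_of_nonneg_left cp (by rw [hrd]; exact hr.le)
    linarith
  have hN1 : Nh (fun z x => Real.exp (-(r * t * c)) * Real.exp (r * t * y z x)) :=
    Nh.const_mul _ (hexp _)
  have hN2 : Nh (fun z x => Real.exp (r * t * c) * Real.exp (-(r * t) * y z x)) :=
    Nh.const_mul _ (hexp _)
  have hN0 : Nh (X := X) (fun (_ : ι → ℝ) (_ : X) => (-2 : ℝ)) := fun _ => EG.const _
  have h1 : S.Ex (fun z x => (r * t) ^ 2 * (y z x - c) ^ 2) ≤
      S.Ex (fun z x => (Real.exp (-(r * t * c)) * Real.exp (r * t * y z x) +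
        Real.exp (r * t * c) * Real.exp (-(r * t) * y z x)) + (-2)) := by
    refine hS.Ex_mono (Nh.const_mul _ (Nh.pow (Nh.sub hy fun _ => EG.const _) 2))
      (Nh.add (Nh.add hN1 hN2) hN0) fun z x => ?_
    have h2 := sq_le_exp_add (r * t * (y z x - c))
    have e1 : Real.exp (r * t * (y z x - c)) = Real.exp (-(r * t * c)) * Real.exp (r * t * y z x) := by
      rw [← Real.exp_add]; congr 1; ring
    have e2 : Real.exp (-(r * t * (y z x - c))) =
        Real.exp (r * t * c) * Real.exp (-(r * t) * y z x) := by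
      rw [← Real.exp_add]; congr 1; ring
    rw [e1, e2, mul_pow] at h2
    linarith
  rw [Sy.Ex_const_mul, hS.Ex_add (Nh.add hN1 hN2) hN0, hS.Ex_add hN1 hN2, hS.Ex_const] at h1
  have hx0 : 0 ≤ r * δ := mul_nonneg (by rw [hrd]; exact hr.le) hδ0
  have hx1 : r * δ ≤ 1 := by rw [hrd, hδ]; exact hsmall
  have h3 := exp_le_two_mul hx0 hx1
  rw [← hrd, ← hδ, le_div_iff₀ (by rw [hrd]; positivity)]
  linarith

end gen

variable {n K N d : ℕ} {m s R : ℕ → ℝ} {β θ : ℝ}

lemma up_SN (hs0 : ∀ l, l < d → s l = 0) (x : Fin n → Bool) :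
    Up (SN n K d m β N s).lev d (fun z => (SN n K d m β N s).H z x) := by
  intro z z' h
  show lin (st β N s x) z + lc n = lin (st β N s x) z' + lc n
  congr 1
  unfold lin
  refine Finset.sum_congr rfl fun e _ => ?_
  by_cases he : d ≤ rlv d e
  · rw [h e he]
  · have h1 : (st β N s : (Fin n → Bool) → RI n K → ℝ) x e = 0 := by
      rcases e with p | p | l
      · exact absurd le_rfl he
      · have hp : (p.1 : ℕ) < d := not_le.1 he
        show dsk N (β / √N) x (Sum.inr (Sum.inl p)) + fd N s x (Sum.inr (Sum.inl p)) = 0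
        rw [dsk_b, fd_b, hs0 _ hp]
        simp
      · show dsk N (β / √N) x (Sum.inr (Sum.inr l)) + fd N s x (Sum.inr (Sum.inr l)) = 0
        rw [dsk_b, fd_c, add_zero]
    rw [h1, zero_mul, zero_mul]

set_option linter.unusedVariables false in
/-- (A-iv) the concentration in `SN` -/
theorem Aiv (hd1 : 1 ≤ d) (hd : d ≤ K) (hN : N ≤ n) (h0 : 0 < N) (hm : Exponents K m)
    (hs : ∀ l ≤ K, 0 ≤ s l) (hs0 : ∀ l, l < d → s l = 0) {t : ℝ} (ht : 0 < t)
    {j : ℕ} (hj1 : d ≤ j) (hj : j ≤ K) (hsmall : m d * dl n K d m β N s t j ≤ 1) :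
    (SN n K d m β N s).Ex (fun z x => (hz (ph hN) (zc hN) j z x -
      (SN n K d m β N s).Ex (hz (ph hN) (zc hN) j)) ^ 2) ≤
      4 * (m d * dl n K d m β N s t j) / (m d * t * N) ^ 2 := by
  have hN0 : (0 : ℝ) < N := by exact_mod_cast h0
  have hReg : (SN n K d m β N s).Reg := rs_reg hd hm _ _
  have hpt : ∀ t' : ℝ, (SN n K d m β N s).pt (gx hN j) t' =
      SN n K d m β N (Function.update s j (s j + t')) := fun t' => SN_pt hN hj t'
  have hRegt : ∀ t', ((SN n K d m β N s).pt (gx hN j) t').Reg := by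
    intro t'
    rw [hpt]
    exact rs_reg hd hm _ _
  have hup : ∀ t' : ℝ, ∀ x, Up (SN n K d m β N s).lev d
      (fun z => (SN n K d m β N s).H z x + t' * gx hN j z x) := by
    intro t' x
    have h1 : ∀ l, l < d → Function.update s j (s j + t') l = 0 := fun l hl => by
      rw [Function.update_of_ne (by omega)]; exact hs0 l hl
    have h2 := up_SN (n := n) (K := K) (m := m) (N := N) (β := β) h1 x
    rw [← hpt] at h2
    exact h2
  have cp := AN_tangent (β := β) hd hN hm s hj t
  have cm := AN_tangent (β := β) hd hN hm s hj (-t)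
  rw [neg_mul, ← sub_eq_add_neg] at cm
  have hdl : ((SN n K d m β N s).pt (gx hN j) t).fe + ((SN n K d m β N s).pt (gx hN j) (-t)).fe -
      2 * (SN n K d m β N s).fe = dl n K d m β N s t j := by
    rw [hpt, hpt]
    rfl
  have h1 := sq_dev (S := SN n K d m β N s) (d := d) hReg (nh_gx hN j) hRegt hup hd1 hd
    (t := t) (c := (SN n K d m β N s).Ex (gx hN j)) ht
    (by rw [hpt]; exact cp) (by rw [hpt]; exact cm)
    (by rw [hdl]; exact hsmall)
  rw [hdl] at h1
  have e1 : (SN n K d m β N s).Ex (fun z x => (hz (ph hN) (zc hN) j z x -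
      (SN n K d m β N s).Ex (hz (ph hN) (zc hN) j)) ^ 2) =
      1 / (N : ℝ) ^ 2 * (SN n K d m β N s).Ex (fun z x => (gx hN j z x -
        (SN n K d m β N s).Ex (gx hN j)) ^ 2) := by
    rw [← Sy.Ex_const_mul]
    congr 1
    funext z x
    rw [rs_Ex_gx hN h0, hz_eq_gx]
    field_simp
  rw [e1]
  have e2 : (SN n K d m β N s).m d = m d := rfl
  rw [e2] at h1
  refine (mul_le_mul_of_nonneg_left h1 (by positivity)).trans (le_of_eq ?_)
  rw [mul_pow (m d * t)]
  field_simp

end Vale.Agent.P146.R3.A
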