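import Vale.Agent.P146.R3.H432.Dia
import Vale.Agent.P146.Bdl.B8

/-!
# P146: normalized traces of polynomials of the matrix `g / √n` (no diagonal)
-/

open MeasureTheory ProbabilityTheory Matrix Filter Topology Polynomial
open scoped Matrix.Norms.L2Operator

namespace Vale.Agent.P146.R3.H43

open Vale.Agent.P146.Sk Vale.Agent.P157.Lv Vale.Agent.P146.R2.H432 Vale.Agent.P146.R3.H432

/-- polynomials are Lipschitz on balls, with a polynomial dependence on the radius -/
theorem poly_glob (p : ℝ[X]) : ∃ (C : ℝ) (m : ℕ), 0 ≤ C ∧ ∀ (N : ℕ)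
    (A B : Matrix (Fin N) (Fin N) ℝ) (R : ℝ), 1 ≤ R → ‖A‖ ≤ R → ‖B‖ ≤ R →
      ‖aeval A p - aeval B p‖ ≤ C * R ^ m * ‖A - B‖ := by
  induction p using Polynomial.induction_on' with
  | add p q hp hq =>
    obtain ⟨C, m, hC, h1⟩ := hp
    obtain ⟨D, l, hD, h2⟩ := hq
    refine ⟨C + D, m + l, by positivity, fun N A B R hR hA hB => ?_⟩
    rw [map_add, map_add, add_sub_add_comm]
    refine (norm_add_le _ _).trans ?_
    have a1 := h1 N A B R hR hA hB
    have a2 := h2 N A B R hR hA hB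
    have b1 : R ^ m ≤ R ^ (m + l) := pow_le_pow_right₀ hR (Nat.le_add_right _ _)
    have b2 : R ^ l ≤ R ^ (m + l) := pow_le_pow_right₀ hR (Nat.le_add_left _ _)
    have c1 : C * R ^ m * ‖A - B‖ ≤ C * R ^ (m + l) * ‖A - B‖ :=
      mul_le_mul_of_nonneg_right (mul_le_mul_of_nonneg_left b1 hC) (norm_nonneg _)
    have c2 : D * R ^ l * ‖A - B‖ ≤ D * R ^ (m + l) * ‖A - B‖ :=
      mul_le_mul_of_nonneg_right (mul_le_mul_of_nonneg_left b2 hD) (norm_nonneg _)
    calc _ ≤ C * R ^ (m + l) * ‖A - B‖ + D * R ^ (m + l) * ‖A - B‖ :=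
          add_le_add (a1.trans c1) (a2.trans c2)
      _ = _ := by ring
  | monomial n a =>
    have key : ∀ n : ℕ, ∀ (N : ℕ) (A B : Matrix (Fin N) (Fin N) ℝ) (R : ℝ), 1 ≤ R → ‖A‖ ≤ R →
        ‖B‖ ≤ R → ‖A ^ n‖ ≤ R ^ n ∧ ‖A ^ n - B ^ n‖ ≤ n * R ^ n * ‖A - B‖ := by
      intro n
      induction n with
      | zero =>
        intro N A B R _ _ _
        simp only [pow_zero, sub_self, norm_zero]
        refine ⟨?_, by simp⟩
        rw [← Matrix.diagonal_one, Matrix.l2_opNorm_diagonal]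
        exact (pi_norm_le_iff_of_nonneg zero_le_one).2 fun i => by simp
      | succ n ih =>
        intro N A B R hR hA hB
        obtain ⟨h1, h2⟩ := ih N A B R hR hA hB
        obtain ⟨h1', -⟩ := ih N B A R hR hB hA
        have hR0 : (0 : ℝ) ≤ R := by linarith
        have hR1 : (0 : ℝ) ≤ R ^ n := by positivity
        constructor
        · rw [pow_succ, pow_succ]
          refine (norm_mul_le _ _).trans ?_
          exact mul_le_mul h1 hA (norm_nonneg _) hR1
        · have e : A ^ (n + 1) - B ^ (n + 1) = (A ^ n - B ^ n) * A + B ^ n * (A - B) := by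
            rw [pow_succ, pow_succ]
            noncomm_ring
          rw [e]
          refine (norm_add_le _ _).trans ?_
          have h3 := (norm_mul_le (A ^ n - B ^ n) A).trans
            (mul_le_mul h2 hA (norm_nonneg _) (by positivity))
          have h4 := (norm_mul_le (B ^ n) (A - B)).trans
            (mul_le_mul_of_nonneg_right h1' (norm_nonneg _))
          refine (add_le_add h3 h4).trans ?_
          rw [pow_succ]
          push_cast
          have h5 : 0 ≤ R ^ n * ‖A - B‖ := by positivity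
          nlinarith [mul_nonneg (sub_nonneg.2 hR) h5]
    refine ⟨|a| * n, n, by positivity, fun N A B R hR hA hB => ?_⟩
    obtain ⟨-, h2⟩ := key n N A B R hR hA hB
    rw [aeval_monomial, aeval_monomial, ← Algebra.smul_def, ← Algebra.smul_def, ← smul_sub,
      norm_smul, Real.norm_eq_abs]
    calc |a| * ‖A ^ n - B ^ n‖ ≤ |a| * (n * R ^ n * ‖A - B‖) :=
          mul_le_mul_of_nonneg_left h2 (abs_nonneg a)
      _ = _ := by ring

/-- the entries are bounded by the operator norm -/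
lemma abs_diag_le_norm {N : ℕ} (A : Matrix (Fin N) (Fin N) ℝ) (i : Fin N) : |A i i| ≤ ‖A‖ := by
  classical
  have h := abs_bil_le A (Pi.single i 1) (Pi.single i 1)
  have h1 : ∑ j, (Pi.single i (1 : ℝ) : Fin N → ℝ) j ^ 2 = 1 := by
    rw [Finset.sum_eq_single i]
    · simp
    · intro j _ hj
      simp [Pi.single_eq_of_ne hj]
    · intro hi
      exact absurd (Finset.mem_univ _) hi
  have h2 : ∑ a, ∑ b, (Pi.single i (1 : ℝ) : Fin N → ℝ) a * A a b *
      (Pi.single i (1 : ℝ) : Fin N → ℝ) b = A i i := by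
    rw [Finset.sum_eq_single i]
    · rw [Finset.sum_eq_single i]
      · simp
      · intro j _ hj
        simp [Pi.single_eq_of_ne hj]
      · intro hi
        exact absurd (Finset.mem_univ _) hi
    · intro j _ hj
      simp [Pi.single_eq_of_ne hj]
    · intro hi
      exact absurd (Finset.mem_univ _) hi
  rw [h1, h2, Real.sqrt_one, mul_one, mul_one] at h
  exact h

lemma abs_trace_le {N : ℕ} (A : Matrix (Fin N) (Fin N) ℝ) : |A.trace / N| ≤ ‖A‖ := by
  rcases Nat.eq_zero_or_pos N with rfl | hN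
  · simp
  have hN' : (0 : ℝ) < N := by exact_mod_cast hN
  rw [abs_div, Nat.abs_cast, div_le_iff₀ hN']
  unfold Matrix.trace
  refine (Finset.abs_sum_le_sum_abs _ _).trans ?_
  refine (Finset.sum_le_card_nsmul _ _ _ fun i _ => abs_diag_le_norm A i).trans ?_
  simp [mul_comm]

/-- the diagonal entries, normalized -/
noncomputable def dgz (N : ℕ) (z : Ix N → ℝ) : Fin N → ℝ := fun i => √2 * z (i, i) / √(N : ℝ)

lemma Wm_eq_z (N : ℕ) (z : Ix N → ℝ) :
    Wm N z = WW (sy N z) + Matrix.diagonal (dgz N z) := by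
  have h2 : √(2 * (N : ℝ)) = √2 * √(N : ℝ) := Real.sqrt_mul (by norm_num) _
  have h3 : √2 * √2 = (2 : ℝ) := Real.mul_self_sqrt (by norm_num)
  have h4 : √2 ≠ (0 : ℝ) := by positivity
  ext i j
  rw [Matrix.add_apply]
  show (z (i, j) + z (j, i)) / √(2 * (N : ℝ)) =
    Vale.Agent.P150.gsym (sy N z) i j / Real.sqrt N + Matrix.diagonal (dgz N z) i j
  unfold Vale.Agent.P150.gsym
  rcases lt_trichotomy i j with h | h | h
  · rw [dif_pos h, Matrix.diagonal_apply_ne _ h.ne, add_zero, h2]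
    simp only [sy]
    rw [div_div]
  · subst h
    rw [dif_neg (lt_irrefl _), dif_neg (lt_irrefl _), Matrix.diagonal_apply_eq, h2]
    simp only [dgz]
    rcases Nat.eq_zero_or_pos N with hN | hN
    · subst hN; exact i.elim0
    have h5 : √(N : ℝ) ≠ 0 := by positivity
    rw [zero_div, zero_add, div_eq_div_iff (by positivity) h5]
    linear_combination (-z (i, i) * √(N : ℝ)) * h3
  · rw [dif_neg h.not_gt, dif_pos h, Matrix.diagonal_apply_ne _ h.ne', add_zero, h2]
    simp only [sy]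
    rw [div_div, add_comm (z (j, i))]

lemma norm_diag_le_W {N : ℕ} (z : Ix N → ℝ) : ‖dgz N z‖ ≤ ‖Wm N z‖ := by
  rw [pi_norm_le_iff_of_nonneg (norm_nonneg _)]
  intro i
  have h := abs_diag_le_norm (Wm N z) i
  have h1 : Wm N z i i = dgz N z i := by
    rw [Wm_eq_z, Matrix.add_apply, Matrix.diagonal_apply_eq]
    have : WW (sy N z) i i = 0 := by
      show Vale.Agent.P150.gsym (sy N z) i i / Real.sqrt N = 0
      rw [Vale.Agent.P150.gsym_self, zero_div]
    rw [this, zero_add]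
  rw [h1] at h
  exact h

lemma norm_diag_four {N : ℕ} (z : Ix N → ℝ) : ‖dgz N z‖ ^ 4 ≤ ∑ i, dgz N z i ^ 4 := by
  have h0 : 0 ≤ ∑ i, dgz N z i ^ 4 := Finset.sum_nonneg fun i _ => by positivity
  have h1 : ‖dgz N z‖ ≤ √(√(∑ i, dgz N z i ^ 4)) := by
    rw [pi_norm_le_iff_of_nonneg (Real.sqrt_nonneg _)]
    intro i
    rw [Real.norm_eq_abs]
    refine Real.le_sqrt_of_sq_le (Real.le_sqrt_of_sq_le ?_)
    rw [sq_abs, ← pow_mul]
    exact Finset.single_le_sum (f := fun i => dgz N z i ^ 4) (fun i _ => by positivity)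
      (Finset.mem_univ i)
  calc ‖dgz N z‖ ^ 4 ≤ √(√(∑ i, dgz N z i ^ 4)) ^ 4 := pow_le_pow_left₀ (norm_nonneg _) h1 4
    _ = (√(√(∑ i, dgz N z i ^ 4)) ^ 2) ^ 2 := by ring
    _ = ∑ i, dgz N z i ^ 4 := by
        rw [Real.sq_sqrt (Real.sqrt_nonneg _), Real.sq_sqrt h0]

/-- the normalized trace for the matrix without diagonal -/
noncomputable def tz (N : ℕ) (q : ℝ[X]) (z : Ix N → ℝ) : ℝ := (aeval (WW (sy N z)) q).trace / N

lemma diff_bound (q : ℝ[X]) : ∃ (C : ℝ) (m : ℕ), 0 ≤ C ∧ ∀ (N : ℕ) (z : Ix N → ℝ),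
    |tp N q z - tz N q z| ≤ C * Opn.om N z ^ m * ‖dgz N z‖ := by
  obtain ⟨C, m, hC, h⟩ := poly_glob q
  refine ⟨C * 2 ^ m, m, by positivity, fun N z => ?_⟩
  have ho : Opn.om N z = 1 + ‖Wm N z‖ := rfl
  have h1 : (1 : ℝ) ≤ Opn.om N z := Opn.one_le_om z
  have hd : ‖Wm N z - WW (sy N z)‖ = ‖dgz N z‖ := by
    rw [Wm_eq_z, add_sub_cancel_left, Matrix.l2_opNorm_diagonal]
  have h2 : ‖WW (sy N z)‖ ≤ 2 * Opn.om N z := by
    have e : WW (sy N z) = Wm N z - (Wm N z - WW (sy N z)) := by abel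
    rw [e]
    refine (norm_sub_le _ _).trans ?_
    rw [hd]
    have := norm_diag_le_W z
    linarith [norm_nonneg (Wm N z)]
  have h3 : ‖Wm N z‖ ≤ 2 * Opn.om N z := by linarith [norm_nonneg (Wm N z)]
  have h4 := h N (Wm N z) (WW (sy N z)) (2 * Opn.om N z) (by linarith) h3 h2
  have h5 := abs_trace_le (aeval (Wm N z) q - aeval (WW (sy N z)) q)
  rw [Matrix.trace_sub, sub_div] at h5
  refine (h5.trans h4).trans (le_of_eq ?_)
  rw [hd, mul_pow]
  ring

lemma eg_dgz {N : ℕ} (i : Fin N) : EG (fun z : Ix N → ℝ => dgz N z i) := by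
  have h := (EG.coord (ι := Ix N) (i, i)).const_mul (√2 / √(N : ℝ))
  refine (show (fun z : Ix N → ℝ => dgz N z i) = fun z => √2 / √(N : ℝ) * z (i, i) from ?_) ▸ h
  funext z
  simp only [dgz]
  ring

lemma egm_WW {N : ℕ} : EGM (fun z : Ix N → ℝ => WW (sy N z)) := by
  intro i j
  have h1 : EG (fun z : Ix N → ℝ => Matrix.diagonal (dgz N z) i j) := by
    by_cases h : i = j
    · subst h
      simp only [Matrix.diagonal_apply_eq]
      exact eg_dgz i
    · simp only [Matrix.diagonal_apply_ne _ h]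
      exact EG.const 0
  have h2 := (egm_Wm (N := N) i j).sub h1
  refine (show (fun z : Ix N → ℝ => WW (sy N z) i j) =
    fun z => Wm N z i j - Matrix.diagonal (dgz N z) i j from ?_) ▸ h2
  funext z
  rw [Wm_eq_z, Matrix.add_apply, add_sub_cancel_right]

lemma egm_WW_pow {N : ℕ} (p : ℕ) : EGM (fun z : Ix N → ℝ => (WW (sy N z)) ^ p) := by
  induction p with
  | zero => simpa using EGM.const (ι := Ix N) (N := N) 1
  | succ p ih => simpa only [pow_succ] using ih.mul egm_WW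

lemma eg_tz {N : ℕ} (q : ℝ[X]) : EG (fun z : Ix N → ℝ => tz N q z) := by
  have h0 : EGM (fun z : Ix N → ℝ => aeval (WW (sy N z)) q) := by
    intro i j
    simp only [aeval_eq_sum_range, Matrix.sum_apply, Matrix.smul_apply, smul_eq_mul]
    exact EG.sum _ fun k _ => (egm_WW_pow k i j).const_mul _
  have h := h0.trace.const_mul (N : ℝ)⁻¹
  simp only [← div_eq_inv_mul] at h
  exact h

lemma int_diag_four {N : ℕ} (hN : 0 < N) :
    ∫ z, ∑ i, dgz N z i ^ 4 ∂(gI (Ix N)) ≤ 64 / N := by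
  classical
  have hN' : (0 : ℝ) < N := by exact_mod_cast hN
  rw [integral_finsetSum _ fun i _ => ((eg_dgz i).pow 4).integrable]
  have h1 : ∀ i : Fin N, ∫ z, dgz N z i ^ 4 ∂(gI (Ix N)) ≤ 64 / (N : ℝ) ^ 2 := by
    intro i
    have e : ∀ z : Ix N → ℝ, dgz N z i ^ 4 = 4 / (N : ℝ) ^ 2 * z (i, i) ^ 4 := by
      intro z
      simp only [dgz]
      rw [div_pow, mul_pow]
      have e1 : √2 ^ 4 = (4 : ℝ) := by
        rw [show (4 : ℕ) = 2 * 2 from rfl, pow_mul, Real.sq_sqrt (by norm_num)]; norm_num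
      have e2 : √(N : ℝ) ^ 4 = (N : ℝ) ^ 2 := by
        rw [show (4 : ℕ) = 2 * 2 from rfl, pow_mul, Real.sq_sqrt (by positivity)]
      rw [e1, e2]
      ring
    simp only [e]
    rw [integral_const_mul]
    have h2 : ∫ z : Ix N → ℝ, z (i, i) ^ 4 ∂(gI (Ix N)) ≤ 16 := by
      have h3 := int_even (ι := Ix N) (i, i) 2
      refine le_trans (le_of_eq ?_) (h3.trans (le_of_eq ?_))
      · rfl
      · norm_num
    calc 4 / (N : ℝ) ^ 2 * ∫ z : Ix N → ℝ, z (i, i) ^ 4 ∂(gI (Ix N)) ≤ 4 / (N : ℝ) ^ 2 * 16 :=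
          mul_le_mul_of_nonneg_left h2 (by positivity)
      _ = 64 / (N : ℝ) ^ 2 := by ring
  refine (Finset.sum_le_card_nsmul _ _ _ fun i _ => h1 i).trans (le_of_eq ?_)
  rw [Finset.card_univ, Fintype.card_fin, nsmul_eq_mul]
  field_simp

/-- the difference of the normalized traces with and without diagonal tends to `0` in `L²` -/
theorem diff_conv (q : ℝ[X]) : Tendsto (fun N =>
    ∫ z, (tp N q z - tz N q z) ^ 2 ∂(gI (Ix N))) atTop (𝓝 0) := by
  obtain ⟨C, m, hC, h⟩ := diff_bound q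
  obtain ⟨M, hM, hm⟩ := Opn.moment_om (4 * m)
  have key : ∀ (ε : ℝ), 0 < ε → ∀ N : ℕ, 0 < N → ∫ z, (tp N q z - tz N q z) ^ 2 ∂(gI (Ix N)) ≤
      C ^ 2 * (ε * M + ε⁻¹ * (64 / N)) := by
    intro ε hε N hN
    have e1 : ∀ z : Ix N → ℝ, (tp N q z - tz N q z) ^ 2 ≤
        C ^ 2 * (ε * Opn.om N z ^ (4 * m) + ε⁻¹ * ∑ i, dgz N z i ^ 4) := by
      intro z
      have a1 : (tp N q z - tz N q z) ^ 2 ≤ (C * Opn.om N z ^ m * ‖dgz N z‖) ^ 2 := by
        rw [← sq_abs]
        exact pow_le_pow_left₀ (abs_nonneg _) (h N z) 2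
      refine a1.trans ?_
      have a2 := norm_diag_four z
      obtain ⟨x, hx⟩ : ∃ x, x = Opn.om N z ^ (2 * m) := ⟨_, rfl⟩
      obtain ⟨y, hy⟩ : ∃ y, y = ‖dgz N z‖ ^ 2 := ⟨_, rfl⟩
      have e2 : (C * Opn.om N z ^ m * ‖dgz N z‖) ^ 2 = C ^ 2 * (x * y) := by
        rw [hx, hy]; ring
      have e3 : Opn.om N z ^ (4 * m) = x ^ 2 := by rw [hx]; ring
      have e4 : ‖dgz N z‖ ^ 4 = y ^ 2 := by rw [hy]; ring
      rw [e4] at a2
      rw [e2, e3]
      refine mul_le_mul_of_nonneg_left ?_ (sq_nonneg C)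
      have a3 : x * y ≤ ε * x ^ 2 + ε⁻¹ * y ^ 2 := by
        have h5 : 0 ≤ ε⁻¹ * (ε * x - y) ^ 2 := by positivity
        have h6 : ε⁻¹ * (ε * x - y) ^ 2 = ε * x ^ 2 - 2 * (x * y) + ε⁻¹ * y ^ 2 := by
          field_simp
          ring
        have h7 : 0 ≤ ε * x ^ 2 + ε⁻¹ * y ^ 2 := by positivity
        nlinarith
      exact a3.trans (add_le_add_right (mul_le_mul_of_nonneg_left a2 (by positivity)) _)
    have i1 : EG (fun z : Ix N → ℝ => (tp N q z - tz N q z) ^ 2) :=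
      ((eg_tp q).sub (eg_tz q)).pow 2
    have i2 : EG (fun z : Ix N → ℝ => Opn.om N z ^ (4 * m)) := Opn.eg_om.pow _
    have i3 : EG (fun z : Ix N → ℝ => ∑ i, dgz N z i ^ 4) :=
      EG.sum _ fun i _ => (eg_dgz i).pow 4
    refine (integral_mono i1.integrable
      (((i2.const_mul ε).add (i3.const_mul ε⁻¹)).const_mul (C ^ 2)).integrable e1).trans ?_
    rw [integral_const_mul, integral_add (i2.const_mul ε).integrable (i3.const_mul ε⁻¹).integrable,
      integral_const_mul, integral_const_mul]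
    refine mul_le_mul_of_nonneg_left (add_le_add ?_ ?_) (sq_nonneg C)
    · exact mul_le_mul_of_nonneg_left (hm N hN) hε.le
    · exact mul_le_mul_of_nonneg_left (int_diag_four hN) (by positivity)
  rw [Metric.tendsto_atTop]
  intro δ hδ
  obtain ⟨ε, hε, hε2⟩ : ∃ ε : ℝ, 0 < ε ∧ C ^ 2 * (ε * M) < δ / 2 := by
    refine ⟨δ / (4 * (C ^ 2 * M + 1)), by positivity, ?_⟩
    have : C ^ 2 * (δ / (4 * (C ^ 2 * M + 1)) * M) = δ / 4 * (C ^ 2 * M / (C ^ 2 * M + 1)) := by
      field_simp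
    rw [this]
    have h1 : C ^ 2 * M / (C ^ 2 * M + 1) ≤ 1 := by
      rw [div_le_one (by positivity)]; linarith
    nlinarith
  have hlim : Tendsto (fun N : ℕ => C ^ 2 * (ε⁻¹ * (64 / (N : ℝ)))) atTop (𝓝 0) := by
    have h1 : Tendsto (fun N : ℕ => 64 / (N : ℝ)) atTop (𝓝 0) :=
      tendsto_const_nhds.div_atTop tendsto_natCast_atTop_atTop
    have h2 := (h1.const_mul ε⁻¹).const_mul (C ^ 2)
    simpa using h2
  obtain ⟨N₀, hN₀⟩ := eventually_atTop.1 (hlim.eventually_lt_const (show 0 < δ / 2 by positivity))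
  refine ⟨max N₀ 1, fun N hN => ?_⟩
  have hN1 : 0 < N := lt_of_lt_of_le one_pos ((le_max_right _ _).trans hN)
  have h1 := key ε hε N hN1
  have h2 := hN₀ N ((le_max_left _ _).trans hN)
  rw [Real.dist_eq, sub_zero, abs_of_nonneg (integral_nonneg fun z => sq_nonneg _)]
  have h3 : C ^ 2 * (ε * M + ε⁻¹ * (64 / N)) = C ^ 2 * (ε * M) + C ^ 2 * (ε⁻¹ * (64 / (N : ℝ))) := by
    ring
  linarith

/-- **(D) for the Gaussian array** -/
theorem tz_conv (q : ℝ[X]) : L2c (fun N => tz N q) (Lam q) := by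
  have h1 : L2c (fun N z => tp N q z - tz N q z) 0 := by
    refine ⟨fun N => (eg_tp q).sub (eg_tz q), ?_⟩
    simpa using diff_conv q
  have h2 := (Lam_spec q).sub h1
  simpa using h2

lemma continuous_WW {n : ℕ} : Continuous fun g : Pair n → ℝ => WW g :=
  Vale.Agent.P150.F.continuous_skM

lemma continuous_tr {n : ℕ} (q : ℝ[X]) :
    Continuous fun g : Pair n → ℝ => (aeval (WW g) q).trace / n := by
  refine Continuous.div_const ?_ _
  simp only [aeval_eq_sum_range]
  refine Continuous.matrix_trace ?_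
  refine continuous_finsetSum _ fun k _ => ?_
  exact Continuous.const_smul (g := fun g : Pair n → ℝ => WW g ^ k) (continuous_WW.pow k)
    (q.coeff k)

/-- the law of the array without diagonal -/
lemma int_disorder {N : ℕ} {F : (Pair N → ℝ) → ℝ} (hF : Continuous F) :
    ∫ g, F g ∂(disorder N) = ∫ z, F (sy N z) ∂(gI (Ix N)) := by
  rw [← map_sy N]
  exact integral_map (measurable_sy N).aemeasurable hF.aestronglyMeasurable

/-- **(D)**: normalized traces of polynomials of `g / √n` converge in `L²` to the moments of the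
semicircle law -/
theorem tr_conv (q : ℝ[X]) : Tendsto (fun n : ℕ =>
    ∫ g, ((aeval (WW g) q).trace / n - Lam q) ^ 2 ∂(disorder n)) atTop (𝓝 0) := by
  refine (tz_conv q).lim.congr fun N => ?_
  exact (int_disorder (F := fun g => ((aeval (WW g) q).trace / N - Lam q) ^ 2)
    (((continuous_tr q).sub continuous_const).pow 2)).symm

/-- **(D)** for the products of the Chebyshev polynomials -/
theorem cheb_tr_conv (k l : ℕ) : Tendsto (fun n : ℕ =>
    ∫ g, ((cheb k (WW g) * cheb l (WW g)).trace / n - if k = l then 1 else 0) ^ 2 ∂(disorder n))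
    atTop (𝓝 0) := by
  have h := tr_conv (Sp k * Sp l)
  rw [Lam_Sp_mul] at h
  refine h.congr fun n => ?_
  simp only [map_mul, cheb_eq_aeval]

/-- `L²` convergence implies `L¹` convergence -/
lemma L2c_abs {f : ∀ N : ℕ, (Ix N → ℝ) → ℝ} {a : ℝ} (hf : L2c f a) :
    Tendsto (fun N => ∫ z, |f N z - a| ∂(gI (Ix N))) atTop (𝓝 0) := by
  rw [Metric.tendsto_atTop]
  intro δ hδ
  have h2 : Tendsto (fun N => (2 * δ)⁻¹ * ∫ z, (f N z - a) ^ 2 ∂(gI (Ix N))) atTop (𝓝 0) := by
    simpa using hf.lim.const_mul (2 * δ)⁻¹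
  obtain ⟨N₀, h⟩ := eventually_atTop.1 (h2.eventually_lt_const (show 0 < δ / 2 by positivity))
  refine ⟨N₀, fun N hN => ?_⟩
  rw [Real.dist_eq, sub_zero, abs_of_nonneg (integral_nonneg fun z => abs_nonneg _)]
  have e1 : ∀ z : Ix N → ℝ, |f N z - a| ≤ δ / 2 + (2 * δ)⁻¹ * (f N z - a) ^ 2 := by
    intro z
    have h3 : (2 * δ)⁻¹ * (|f N z - a| - δ) ^ 2 =
        (2 * δ)⁻¹ * (f N z - a) ^ 2 - |f N z - a| + δ / 2 := by
      rw [sub_sq, sq_abs]
      field_simp
    have h4 : 0 ≤ (2 * δ)⁻¹ * (|f N z - a| - δ) ^ 2 := by positivity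
    linarith
  have i1 : EG (fun z : Ix N → ℝ => f N z - a) := (hf.eg N).sub (EG.const a)
  refine (integral_mono i1.abs.integrable
    ((EG.const (δ / 2)).add ((i1.pow 2).const_mul _)).integrable e1).trans_lt ?_
  rw [integral_add (EG.const (δ / 2)).integrable ((i1.pow 2).const_mul _).integrable,
    integral_const_mul, integral_const, probReal_univ, one_smul]
  linarith [h N hN]

/-- **(D)**, in `L¹` -/
theorem tr_conv_abs (q : ℝ[X]) : Tendsto (fun n : ℕ =>
    ∫ g, |(aeval (WW g) q).trace / n - Lam q| ∂(disorder n)) atTop (𝓝 0) := by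
  refine (L2c_abs (tz_conv q)).congr fun N => ?_
  exact (int_disorder (F := fun g => |(aeval (WW g) q).trace / N - Lam q|)
    (((continuous_tr q).sub continuous_const).abs)).symm

lemma aeval_T {N : ℕ} {A : Matrix (Fin N) (Fin N) ℝ} (hA : Aᵀ = A) (p : ℝ[X]) :
    (aeval A p)ᵀ = aeval A p := by
  rw [aeval_eq_sum_range, Matrix.transpose_sum]
  refine Finset.sum_congr rfl fun k _ => ?_
  rw [Matrix.transpose_smul, Matrix.transpose_pow, hA]

lemma WW_T {n : ℕ} (g : Pair n → ℝ) : (WW g)ᵀ = WW g := by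
  ext i j
  rw [Matrix.transpose_apply]
  exact WW_symm g j i

lemma cheb_T {n : ℕ} (g : Pair n → ℝ) (k : ℕ) : (cheb k (WW g))ᵀ = cheb k (WW g) := by
  rw [cheb_eq_aeval]
  exact aeval_T (WW_T g) _

lemma sum_cheb_eq {n : ℕ} (g : Pair n → ℝ) (k l : ℕ) :
    ∑ j, ∑ v, cheb k (WW g) v j * cheb l (WW g) v j =
      (cheb k (WW g) * cheb l (WW g)).trace := by
  conv_rhs => rw [← cheb_T g k]
  simp only [Matrix.trace, Matrix.diag, Matrix.mul_apply, Matrix.transpose_apply]

/-- **(D)** for the products of the Chebyshev polynomials, in `L¹`, as a sum over entries -/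
theorem cheb_sum_conv (k l : ℕ) : Tendsto (fun n : ℕ =>
    ∫ g, |(n : ℝ)⁻¹ * (∑ j, ∑ v, cheb k (WW g) v j * cheb l (WW g) v j) -
      if k = l then 1 else 0| ∂(disorder n)) atTop (𝓝 0) := by
  have h := tr_conv_abs (Sp k * Sp l)
  rw [Lam_Sp_mul] at h
  refine h.congr fun n => ?_
  simp only [sum_cheb_eq, ← div_eq_inv_mul]
  simp only [map_mul, cheb_eq_aeval]

end Vale.Agent.P146.R3.H43
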